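import Vale.Agent.P068.Recursion
import Vale.Agent.P068.Final
import Vale.Agent.P068.PackInt
import Vale.Agent.P068.CH

/-!
# P068: what the two conjectures would imply

Unconditional theorem of ZFC: if every pair of matroids on a countable set satisfies
intersection, or if every family of matroids on a countable set has a packing/covering
partition, then the continuum hypothesis is false, and some family of fewer than continuum many
infinite sets of natural numbers is not split by any single set. Hence neither conjecture can
be proved in ZFC.
-/

open Set
open scoped Cardinal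

namespace Vale.Agent.Results.P068.ConjectureRefutesCH

/-- The matroid intersection conjecture for countable ground sets. -/
def IntersectionConjecture : Prop :=
  ∀ (α : Type) (_ : Countable α) (M N : Matroid α), M.E = univ → N.E = univ →
    P068.SatisfiesIntersection M N

/-- The packing/covering conjecture for countable ground sets. -/
def PackingCoveringConjecture : Prop :=
  ∀ (α : Type) (_ : Countable α) (ι : Type) (M : ι → Matroid α), (∀ i, (M i).E = univ) →
    P068.HasPackingCovering univ M

/-- Some family of fewer than continuum many infinite sets of natural numbers is not split by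
any single set: the reaping number is less than the continuum. -/
def SmallUnsplitFamily : Prop :=
  ∃ D : Set (Set ℕ), #D < 𝔠 ∧ (∀ A ∈ D, A.Infinite) ∧
    ∀ S : Set ℕ, ∃ A ∈ D, (A ∩ S).Finite ∨ (A \ S).Finite

theorem small_of_not (h : ¬ P068.SplittingHyp) : SmallUnsplitFamily := by
  unfold P068.SplittingHyp at h
  push Not at h
  obtain ⟨D, h1, h2, h3⟩ := h
  refine ⟨D, h1, h2, fun S => ?_⟩
  obtain ⟨A, hA, hS⟩ := h3 S
  refine ⟨A, hA, ?_⟩
  by_cases hi : (A ∩ S).Finite
  · exact Or.inl hi
  · exact Or.inr (Set.not_infinite.1 (by simpa using hS hi))

theorem ch_false_of_not (h : ¬ P068.SplittingHyp) : (ℵ₁ : Cardinal.{0}) < 𝔠 := by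
  refine lt_of_le_of_ne Cardinal.aleph_one_le_continuum fun he => h ?_
  exact P068.splittingHyp_of_CH he

theorem no_split_of_intersection (h : IntersectionConjecture) : ¬ P068.SplittingHyp := by
  intro hs
  obtain ⟨O, i1, i2, ⟨sys⟩⟩ := P068.exists_labelledSystem hs
  obtain ⟨U, hE, hU, hno⟩ := P068.no_intersection sys
  have hME : (Matroid.sum' U).E = univ := by
    rw [Matroid.sum'_ground_eq]
    ext ⟨v, a⟩
    simp [hE]
  exact hno (h _ inferInstance _ _ hME P068.pairMatroid_ground)

theorem intersection_of_packing (h : PackingCoveringConjecture) : IntersectionConjecture := by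
  intro α hα M N hM hN
  refine P068.intersection_of_packingCovering M N hM hN (h α hα Bool _ ?_)
  intro i
  cases i
  · simpa using hM
  · simpa using hN

/-- Each of the two conjectures, already for countable ground sets, implies that the continuum
hypothesis is false and that the reaping number is less than the continuum. -/
theorem result :
    (IntersectionConjecture → (ℵ₁ : Cardinal.{0}) < 𝔠 ∧ SmallUnsplitFamily) ∧
    (PackingCoveringConjecture → (ℵ₁ : Cardinal.{0}) < 𝔠 ∧ SmallUnsplitFamily) := by
  have key : IntersectionConjecture → (ℵ₁ : Cardinal.{0}) < 𝔠 ∧ SmallUnsplitFamily :=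
    fun h => ⟨ch_false_of_not (no_split_of_intersection h),
      small_of_not (no_split_of_intersection h)⟩
  exact ⟨key, fun h => key (intersection_of_packing h)⟩

end Vale.Agent.Results.P068.ConjectureRefutesCH
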