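import Vale.Agent.P068.Recursion
import Vale.Agent.P068.Final
import Vale.Agent.P068.PackInt
import Vale.Agent.P068.CH

/-!
# P068: the matroid intersection and packing/covering conjectures are not provable in ZFC

If every family of fewer than continuum many infinite sets of natural numbers is split by one
set (in particular under the continuum hypothesis), then both conjectures fail on a countable
ground set, for a direct sum of uniform matroids and a direct sum of matroids `U_{1,2}`.
-/

open Set
open scoped Cardinal

namespace Vale.Agent.Results.P068.ReapingCounterexample

/-- A counterexample to both conjectures on the countable ground set of half-edges: `M` is the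
direct sum of countably many uniform matroids `U v`, and `N = pairMatroid` is the (finitary)
matroid in which a set is independent when it has at most one half-edge of every edge. -/
def Counterexample : Prop :=
  ∃ U : Bool × ℕ → Matroid (ℕ ⊕ ℕ),
    (∀ v, (U v).E = univ) ∧ (∀ v, P068.IsUniform (U v)) ∧
    (Matroid.sum' U).E = univ ∧ P068.pairMatroid.E = univ ∧ P068.pairMatroid.Finitary ∧
    ¬ P068.SatisfiesIntersection (Matroid.sum' U) P068.pairMatroid ∧
    ¬ P068.HasPackingCovering univ
      (fun i : Bool => if i then P068.pairMatroid.dual else Matroid.sum' U)

theorem counterexample_of_splitting (h : P068.SplittingHyp) : Counterexample := by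
  obtain ⟨O, i1, i2, ⟨sys⟩⟩ := P068.exists_labelledSystem h
  obtain ⟨U, hE, hU, hno⟩ := P068.no_intersection sys
  have hME : (Matroid.sum' U).E = univ := by
    rw [Matroid.sum'_ground_eq]
    ext ⟨v, a⟩
    simp [hE]
  refine ⟨U, hE, hU, hME, P068.pairMatroid_ground, ?_, hno, fun hpc => hno ?_⟩
  · unfold P068.pairMatroid
    infer_instance
  · exact P068.intersection_of_packingCovering _ _ hME P068.pairMatroid_ground hpc

/-- Both conjectures fail if the reaping number is the continuum, in particular under the
continuum hypothesis. Hence each of the conjectures implies that the continuum hypothesis is
false, and that some family of fewer than continuum many infinite sets is not split. -/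
theorem result :
    (P068.SplittingHyp → Counterexample) ∧ ((ℵ₁ : Cardinal.{0}) = 𝔠 → Counterexample) :=
  ⟨counterexample_of_splitting,
    fun h => counterexample_of_splitting (P068.splittingHyp_of_CH h)⟩

end Vale.Agent.Results.P068.ReapingCounterexample
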